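import Vale.Agent.Helper22.Axial

/-!
P080: axially symmetric infinity-harmonic functions in any dimension reduce to planar
infinity-harmonic functions.
-/

open Vale.Agent.Helper22.InfHarm

namespace Vale.Agent.Results.P080.AxialReduction

/-- Let `F` be a real Hilbert space (for instance `ℝ^d`), `a` a unit vector (the axis) and `e` a
unit vector orthogonal to `a`.  Let `u` be axially symmetric on the axially symmetric open set
`Ω = {x : (|x - ⟨a,x⟩a|, ⟨a,x⟩) ∈ U}`, that is `u x = w |x - ⟨a,x⟩a| ⟨a,x⟩` there, with a profile
`w` even in its first variable.  If `u` is a viscosity solution of the infinity Laplace equation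
on `Ω`, then the profile `(r, z) ↦ w r z` is a viscosity solution of the infinity Laplace
equation on the planar open set `U`. -/
theorem result {F : Type*} [NormedAddCommGroup F] [InnerProductSpace ℝ F] [CompleteSpace F]
    (a e : F) (ha : ‖a‖ = 1) (he : ‖e‖ = 1) (hae : inner ℝ a e = 0)
    (U : Set (EuclideanSpace ℝ (Fin 2))) (hU : IsOpen U)
    (hUsym : ∀ p ∈ U, !₂[-(p 0), p 1] ∈ U)
    (w : ℝ → ℝ → ℝ) (hw : ∀ r z, w (-r) z = w r z)
    (u : F → ℝ)
    (hu : ∀ x : F, !₂[‖x - inner ℝ a x • a‖, inner ℝ a x] ∈ U →
      u x = w ‖x - inner ℝ a x • a‖ (inner ℝ a x))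
    (hharm : IsInfHarmonicOn u {x : F | !₂[‖x - inner ℝ a x • a‖, inner ℝ a x] ∈ U}) :
    IsInfHarmonicOn (fun p : EuclideanSpace ℝ (Fin 2) => w (p 0) (p 1)) U := by
  obtain ⟨hcont, hvis⟩ := hharm
  refine ⟨?_, fun φ p hp hφ => ⟨fun hmax => ?_, fun hmin => ?_⟩⟩
  · have h1 : ContinuousOn (fun p : E2 => u (lift a e p)) U := by
      apply hcont.comp (continuous_lift a e).continuousOn
      intro p hp
      exact lift_mem ha he hae U hUsym p hp
    refine h1.congr ?_
    intro p hp
    exact (u_lift ha he hae U hUsym w hw u hu p hp).symm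
  · exact sub_transfer ha he hae U hU hUsym w hw u hu
      (fun Ψ x hx hΨ hm => (hvis Ψ x hx hΨ).1 hm) φ p hp hφ hmax
  · have h := sub_transfer ha he hae U hU hUsym (fun r z => - w r z)
      (fun r z => by simp [hw]) (fun x => - u x)
      (fun x hx => by
        have := hu x hx
        simp only [neg_inj]
        exact this)
      (fun Ψ x hx hΨ hm => by
        have hmin' : IsLocalMin (fun y => u y - -Ψ y) x := by
          have h0 : (fun y => u y - -Ψ y) = fun y => -(-u y - Ψ y) := by
            funext y
            ring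
          rw [h0]
          exact hm.neg
        have h1 := (hvis (fun y => - Ψ y) x hx hΨ.neg).2 hmin'
        rw [infLap_neg] at h1
        linarith)
      (fun q => - φ q) p hp hφ.neg
      (by
        have h0 : (fun q : E2 => -w (q 0) (q 1) - -φ q)
            = fun q : E2 => -(w (q 0) (q 1) - φ q) := by
          funext q
          ring
        rw [h0]
        exact hmin.neg)
    rw [infLap_neg] at h
    linarith

end Vale.Agent.Results.P080.AxialReduction
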